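import Vale.Agent.P112.AFin
import Vale.Agent.P112.RCex

namespace Vale.Agent.Results.P112.Angular

open Filter Topology Vale.Agent.P112

theorem result :
    (∀ v : E2 → E2, UnitLip v → ∀ a : ℝ, 0 < a → ∀ (f : SchwartzMap E2 ℂ) (x : E2),
      Tendsto (fun ε => Htr v a ε f x) (𝓝[>] (0 : ℝ)) (𝓝 (Hpv v a f x))) ∧
    (∀ a : ℝ, 0 < a → a ≤ 1 → ∃ C : ℝ, ∀ v : E2 → E2, UnitLip v → AngBound v a C) ∧
    (∀ a : ℝ, 0 < a → a ≤ 1 → ∃ C : ℝ, ∀ v : E2 → E2, UnitLip v → RadBound v a C) ∧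
    (∀ a : ℝ, 1 < a → ∃ v : E2 → E2, UnitLip v ∧ ∀ C : ℝ, ¬ RadBound v a C) :=
  ⟨fun v hv _ ha f x => hpv_tendsto f v ha x (hv.1 x), fun _ ha ha1 => ang_bound ha ha1,
    fun _ ha ha1 => radial_bound ha ha1, fun _ ha => exists_bad_rad ha⟩

end Vale.Agent.Results.P112.Angular
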