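import Vale.Agent.P112.X3
import Vale.Agent.P112.MCex

namespace Vale.Agent.Results.P112.Apex

open Filter Topology Vale.Agent.P112

theorem result :
    (∀ v : E2 → E2, (∀ x, ‖v x‖ = 1) → ∀ a : ℝ, 0 < a → ∀ (f : SchwartzMap E2 ℂ) (x : E2),
      Tendsto (fun ε => Htr v a ε f x) (𝓝[>] (0 : ℝ)) (𝓝 (Hpv v a f x))) ∧
    (∃ C : ℝ, ∀ v : E2 → E2, UnitLip v → (∀ a : ℝ, 0 < a → a ≤ 1 → RadBound v a C) ∧
      RadWeak (Hx v 1) C ∧ RadWeak (Mx v 1) C) ∧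
    (∀ a : ℝ, 0 < a → a ≤ 1 → ∃ C : ℝ, ∀ v : E2 → E2, UnitLip v → AngBound v a C) ∧
    (∀ a : ℝ, 1 < a → ∃ v : E2 → E2, UnitLip v ∧ ∀ C : ℝ, ¬ RadBound v a C) ∧
    (∀ om : ℝ → ℝ, 0 ≤ om 0 → MonotoneOn om (Set.Ici 0) →
      Tendsto (fun t => om t / t) (𝓝[>] 0) atTop → ∀ a : ℝ, 0 < a →
      ∃ v : E2 → E2, (∀ x, ‖v x‖ = 1) ∧ (∀ x y, ‖v x - v y‖ ≤ om ‖x - y‖) ∧
        ∀ C : ℝ, ¬ RadBound v a C) ∧
    (∀ a : ℝ, 0 < a → a ≤ 1 → ((∃ C, Weak a C) ↔ ∃ C, WeakSmooth 1 C)) := by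
  refine ⟨fun v hv _ ha f x => hpv_tendsto f v ha x (hv x), ?_, fun _ ha ha1 => ang_bound ha ha1,
    fun _ ha => exists_bad_rad ha, fun _ h0 hm ho _ ha => modulus_bad h0 hm ho ha,
    fun a ha ha1 => ⟨?_, ?_⟩⟩
  · obtain ⟨C1, -, h1⟩ := x_all
    obtain ⟨C2, h2⟩ := max_bound
    have key : ∀ (f : SchwartzMap E2 ℂ) (lam C : ℝ), C ≤ max C1 C2 →
        ENNReal.ofReal (C * (lam ^ 2)⁻¹ * ∫ x, ‖f x‖ ^ 2) ≤
          ENNReal.ofReal (max C1 C2 * (lam ^ 2)⁻¹ * ∫ x, ‖f x‖ ^ 2) := fun f lam C hC =>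
      ENNReal.ofReal_le_ofReal (mul_le_mul_of_nonneg_right
        (mul_le_mul_of_nonneg_right hC (by positivity))
        (MeasureTheory.integral_nonneg fun x => by positivity))
    refine ⟨max C1 C2, fun v hv => ⟨fun a ha ha1 f hf lam hl => ?_,
      fun f hf lam hl => ((h2 v hv).1 f hf lam hl).trans (key f lam _ (le_max_right _ _)),
      fun f hf lam hl => ((h2 v hv).2 f hf lam hl).trans (key f lam _ (le_max_right _ _))⟩⟩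
    refine le_trans (MeasureTheory.measure_mono fun x hx => ?_)
      ((h1 v f lam hv hf hl).trans (key f lam _ (le_max_left _ _)))
    exact ⟨a, ⟨ha, ha1⟩, Or.inl (by rw [← hpv_eq f v ha x (hv.1 x)]; exact hx)⟩
  · rintro ⟨C, hC⟩
    exact smooth_transfer ha ha1 one_pos le_rfl (C := C) fun v hv _ => hC v hv
  · rintro ⟨C, hC⟩
    obtain ⟨C', hC'⟩ := smooth_transfer one_pos le_rfl ha ha1 hC
    exact ⟨C', weak_of_smooth ha hC'⟩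

end Vale.Agent.Results.P112.Apex
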