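import Vale.Agent.P112.AFin
import Vale.Agent.P112.MCex

namespace Vale.Agent.Results.P112.Best

open Filter Topology Vale.Agent.P112

theorem result :
    (∀ v : E2 → E2, (∀ x, ‖v x‖ = 1) → ∀ a : ℝ, 0 < a → ∀ (f : SchwartzMap E2 ℂ) (x : E2),
      Tendsto (fun ε => Htr v a ε f x) (𝓝[>] (0 : ℝ)) (𝓝 (Hpv v a f x))) ∧
    (∀ a : ℝ, 0 < a → a ≤ 1 → ∃ C : ℝ, ∀ v : E2 → E2, UnitLip v →
      RadBound v a C ∧ AngBound v a C) ∧
    (∀ a : ℝ, 1 < a → ∃ v : E2 → E2, UnitLip v ∧ ∀ C : ℝ, ¬ RadBound v a C) ∧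
    (∀ om : ℝ → ℝ, 0 ≤ om 0 → MonotoneOn om (Set.Ici 0) →
      Tendsto (fun t => om t / t) (𝓝[>] 0) atTop → ∀ a : ℝ, 0 < a →
      ∃ v : E2 → E2, (∀ x, ‖v x‖ = 1) ∧ (∀ x y, ‖v x - v y‖ ≤ om ‖x - y‖) ∧
        ∀ C : ℝ, ¬ RadBound v a C) ∧
    (∀ a : ℝ, 0 < a → a ≤ 1 → ((∃ C, Weak a C) ↔ ∃ C, WeakSmooth 1 C)) := by
  refine ⟨fun v hv _ ha f x => hpv_tendsto f v ha x (hv x), fun a ha ha1 => ?_,
    fun _ ha => exists_bad_rad ha, fun _ h0 hm ho _ ha => modulus_bad h0 hm ho ha,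
    fun a ha ha1 => ⟨?_, ?_⟩⟩
  · obtain ⟨C1, h1⟩ := radial_bound ha ha1
    obtain ⟨C2, h2⟩ := ang_bound ha ha1
    refine ⟨max C1 C2, fun v hv => ⟨fun f hf lam hl => (h1 v hv f hf lam hl).trans ?_,
      fun f c δ lam d0 d1 hl => (h2 v hv f c δ lam d0 d1 hl).trans ?_⟩⟩
    · have hI : 0 ≤ ∫ x, ‖f x‖ ^ 2 := MeasureTheory.integral_nonneg fun x => by positivity
      exact ENNReal.ofReal_le_ofReal (mul_le_mul_of_nonneg_right
        (mul_le_mul_of_nonneg_right (le_max_left _ _) (by positivity)) hI)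
    · exact mul_le_mul_left (ENNReal.ofReal_le_ofReal
        (mul_le_mul_of_nonneg_right (le_max_right _ _) (by positivity))) _
  · rintro ⟨C, hC⟩
    exact smooth_transfer ha ha1 one_pos le_rfl (C := C) fun v hv _ => hC v hv
  · rintro ⟨C, hC⟩
    obtain ⟨C', hC'⟩ := smooth_transfer one_pos le_rfl ha ha1 hC
    exact ⟨C', weak_of_smooth ha hC'⟩

end Vale.Agent.Results.P112.Best
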