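import Vale.Agent.P112.Smooth
import Vale.Agent.P112.Tail
import Vale.Agent.P112.Cex

namespace Vale.Agent.Results.P112.Range

open Filter Topology Vale.Agent.P112

theorem result :
    (∀ v : E2 → E2, UnitLip v → ∀ a : ℝ, 0 < a → ∀ (f : SchwartzMap E2 ℂ) (x : E2),
      Tendsto (fun ε => Htr v a ε f x) (𝓝[>] (0 : ℝ)) (𝓝 (Hpv v a f x))) ∧
    (∀ a : ℝ, 0 < a → a ≤ 1 → ((∃ C, Weak a C) ↔ ∃ C, Weak 1 C)) ∧
    (∀ a : ℝ, 1 < a → ∃ v : E2 → E2, UnitLip v ∧ ∀ C, ¬ Bound v a C) ∧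
    (∀ a C : ℝ, 0 < a → (Weak a C ↔ WeakSmooth a C)) ∧
    ((∃ a C : ℝ, 0 < a ∧ Weak a C) ↔ ∃ C, WeakSmooth 1 C) := by
  have h2 : ∀ a b : ℝ, 0 < a → a ≤ 1 → 0 < b → b ≤ 1 → (∃ C, Weak a C) → ∃ C, Weak b C := by
    rintro a b ha ha1 hb hb1 ⟨C, hC⟩
    obtain ⟨C', hC'⟩ := smooth_transfer ha ha1 hb hb1 (C := C) fun v hv _ => hC v hv
    exact ⟨C', weak_of_smooth hb hC'⟩
  refine ⟨fun v hv a ha f x => hpv_tendsto f v ha x (hv.1 x), fun a ha ha1 =>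
    ⟨h2 a 1 ha ha1 one_pos le_rfl, h2 1 a one_pos le_rfl ha ha1⟩, fun a ha => exists_bad ha,
    fun a C ha => ⟨fun h v hv _ => h v hv, weak_of_smooth ha⟩, ?_, ?_⟩
  · rintro ⟨a, C, ha, hC⟩
    have ha1 : a ≤ 1 := by
      by_contra h
      obtain ⟨v, hv, hb⟩ := exists_bad (not_le.1 h)
      exact hb C (hC v hv)
    obtain ⟨C', hC'⟩ := h2 a 1 ha ha1 one_pos le_rfl ⟨C, hC⟩
    exact ⟨C', fun v hv _ => hC' v hv⟩
  · rintro ⟨C, hC⟩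
    exact ⟨1, C, one_pos, weak_of_smooth one_pos hC⟩

end Vale.Agent.Results.P112.Range
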